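import Vale.Agent.P068.Main

/-!
# Counterexamples to the matroid intersection and packing/covering conjectures

If the reaping number equals the continuum (for instance under the continuum hypothesis), both
conjectures fail, already on a countable ground set, for a direct sum of countably many uniform
matroids and a direct sum of countably many copies of the rank-one matroid on two elements.
-/

namespace Vale.Agent.Results.P068.ReapingCounterexample

open Set Vale.Agent.P068
open scoped Matroid Cardinal

/-- Failure of intersection and of packing/covering. -/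
theorem result :
    -- the continuum hypothesis implies the splitting hypothesis
    ((𝔠 : Cardinal.{0}) = ℵ₁ → SplitHyp) ∧
    -- the counterexample: a countable direct sum of uniform matroids, and a partition matroid
    -- whose parts have two elements each
    (SplitHyp →
      ∃ (U : Bool × ℕ → Matroid (Bool × ℕ)) (N : Matroid ((Bool × ℕ) × (Bool × ℕ)))
        (π : (Bool × ℕ) × (Bool × ℕ) → Option (Bool × ℕ) × ℕ),
        (∀ v, (U v).E = univ ∧ ∀ X, (U v).Indep X ∨ (U v).Spanning X) ∧
        N.E = univ ∧ (∀ I, N.Indep I ↔ InjOn π I) ∧ (∀ p, (π ⁻¹' {p}).encard = 2) ∧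
        ¬ SatisfiesIntersection (Matroid.sum' U) N ∧
        ¬ HasPackingCovering univ (fun b : Bool => if b then Matroid.sum' U else N✶)) ∧
    -- the matroid intersection conjecture fails
    (SplitHyp →
      ¬ ∀ (α : Type) (M N : Matroid α), M.E = N.E → SatisfiesIntersection M N) ∧
    -- the packing/covering conjecture fails
    (SplitHyp →
      ¬ ∀ (α Θ : Type) (E : Set α) (M : Θ → Matroid α), (∀ i, (M i).E = E) →
        HasPackingCovering E M) := by
  have hmain : SplitHyp →
      ∃ (U : Bool × ℕ → Matroid (Bool × ℕ)) (N : Matroid ((Bool × ℕ) × (Bool × ℕ)))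
        (π : (Bool × ℕ) × (Bool × ℕ) → Option (Bool × ℕ) × ℕ),
        (∀ v, (U v).E = univ ∧ ∀ X, (U v).Indep X ∨ (U v).Spanning X) ∧
        N.E = univ ∧ (∀ I, N.Indep I ↔ InjOn π I) ∧ (∀ p, (π ⁻¹' {p}).encard = 2) ∧
        ¬ SatisfiesIntersection (Matroid.sum' U) N ∧
        ¬ HasPackingCovering univ (fun b : Bool => if b then Matroid.sum' U else N✶) := by
    intro hS
    obtain ⟨f, hf, ht⟩ := exists_fam hS
    have hU := fam_ufam hf ht
    have hint := main_false hf hU
    have hE : (Matroid.sum' (fun v => UM (hU v))).E = univ := by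
      ext ⟨v, x⟩
      simp [UM_E]
    exact ⟨fun v => UM (hU v), NM, pr, fun v => ⟨UM_E (hU v), UM_uniform (hU v)⟩, NM_E,
      fun I => NM_indep, fib_card, hint, fun h => hint (inter_of_pc hE NM_E h)⟩
  refine ⟨splitHyp_of_CH, hmain, fun hS hcon => ?_, fun hS hcon => ?_⟩
  · obtain ⟨U, N, π, hU, hN, -, -, h, -⟩ := hmain hS
    refine h (hcon _ _ _ ?_)
    rw [hN]
    ext ⟨v, x⟩
    simp [(hU v).1]
  · obtain ⟨U, N, π, hU, hN, -, -, -, h⟩ := hmain hS
    refine h (hcon _ _ _ _ ?_)
    intro b
    cases b
    · simp [hN]
    · simp only [if_true]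
      ext ⟨v, x⟩
      simp [(hU v).1]

end Vale.Agent.Results.P068.ReapingCounterexample
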